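import Vale.Agent.P154.D7.K4.Data
import Vale.Agent.P154.ApxLemma

set_option maxRecDepth 100000

namespace Vale.Agent.P154.D7.K4

open PolyR Cert InT OutT

/-- The quotient polynomial for `j = 1`. -/
noncomputable def S1 (u : ℝ) : ℝ :=
  (47 / 4194304 : ℝ) * u ^ 0 + (1893 / 16777216 : ℝ) * u ^ 1 + (-32625 / 16777216 : ℝ) * u ^ 2 + (-95943 / 16777216 : ℝ) * u ^ 3 + (481909 / 8388608 : ℝ) * u ^ 4 + (340461 / 16777216 : ℝ) * u ^ 5 + (-4022419 / 8388608 : ℝ) * u ^ 6 + (2354337 / 4194304 : ℝ) * u ^ 7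

/-- Certificate polynomial. -/
def lpu1 : List ITm := [⟨(-3843307495117187500000000),0,0⟩,⟨135644039154052734375000000,1,0⟩,⟨(-1394152432250976562500000000),2,0⟩,⟨(-2169665933318173828125000000),3,0⟩,⟨11534385022467281789062500000,4,0⟩,⟨2156187963634043172848437500,5,0⟩,⟨(-26962265787125305831547613750),6,0⟩,⟨16702732939392113018313399939,7,0⟩]

/-- Certificate tree. -/
def tpu1 : OutT := (A (A (A (A (A (O l) (O l)) (A (O l) (O l))) (A (O l) (O l))) (A (A (O l) (O l)) (A (O l) (O l)))) (A (A (A (A (O l) (O l)) (A (A (O l) (O l)) (A (O l) (O l)))) (A (A (A (A (O l) (O l)) (A (O l) (O l))) (A (A (O l) (A (O l) (O l))) (A (A (O l) (O l)) (A (O l) (O l))))) (A (A (A (A (O l) (O l)) (A (O l) (O l))) (A (A (O l) (O l)) (A (O l) (O l)))) (A (A (A (O l) (O l)) (A (O l) (O l))) (A (O l) (O l)))))) (A (A (A (A (A (O l) (O l)) (A (O l) (O l))) (A (O l) (O l))) (A (A (O l) (O l)) (A (O l) (O l)))) (A (A (A (O l) (O l)) (A (O l) (O l))) (A (A (O l) (O l)) (A (A (O l) (O l)) (A (O l)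 (A (O l) (A (O l) (O l))))))))))

theorem hpu1 (x : ℝ) (h0 : 0 ≤ x) (h1 : x ≤ 1) : evalIL lpu1 x 0 ≤ 0 :=
  uni_le 7 65536 lpu1 (by norm_num) (by norm_num) (by decide +kernel)
    (chkOut_sound (uniPb 7 65536 lpu1) tpu1 0 32768 0 32768 (by decide +kernel)) x h0 h1

/-- Certificate polynomial. -/
def lpl1 : List ITm := [⟨(-61216354370117187500000000),0,0⟩,⟨(-170073612213134765625000000),1,0⟩,⟨1394152432250976562500000000,2,0⟩,⟨2169665933318173828125000000,3,0⟩,⟨(-11534385022467281789062500000),4,0⟩,⟨(-2156187963634043172848437500),5,0⟩,⟨26962265787125305831547613750,6,0⟩,⟨(-16702732939392113018313399939),7,0⟩]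

/-- Certificate tree. -/
def tpl1 : OutT := (A (A (A (O l) (A (O l) (O l))) (A (A (A (O l) (O l)) (A (A (O l) (O l)) (A (O l) (A (O l) (O l))))) (A (A (A (A (O l) (O l)) (A (O l) (O l))) (A (A (O l) (O l)) (O l))) (A (A (O l) (O l)) (A (O l) (O l)))))) (A (A (A (A (O l) (O l)) (A (O l) (O l))) (A (A (O l) (O l)) (A (O l) (O l)))) (A (A (A (A (O l) (O l)) (A (O l) (O l))) (A (A (O l) (O l)) (A (A (O l) (O l)) (A (O l) (O l))))) (A (A (A (A (O l) (A (O l) (O l))) (A (A (O l) (O l)) (A (O l) (O l)))) (A (A (A (A (O l) (O l)) (A (O l) (O l))) (A (A (O l) (O l)) (A (O l) (O l)))) (A (A (A (O l) (O l)) (A (O l) (O l))) (A (A (O l) (O l)) (O l))))) (A (A (A (A (O l) (O l)) (A (O l) (O l))) (A (O l) (O l))) (A (A (O l) (O l)) (O l)))))))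

theorem hpl1 (x : ℝ) (h0 : 0 ≤ x) (h1 : x ≤ 1) : evalIL lpl1 x 0 ≤ 0 :=
  uni_le 7 65536 lpl1 (by norm_num) (by norm_num) (by decide +kernel)
    (chkOut_sound (uniPb 7 65536 lpl1) tpl1 0 32768 0 32768 (by decide +kernel)) x h0 h1

/-- Certificate polynomial. -/
def lnu1 : List ITm := [⟨(-491943359375000000000000000),0,0⟩,⟨(-8681218505859375000000000000),1,0⟩,⟨(-44612877832031250000000000000),2,0⟩,⟨34714654933090781250000000000,3,0⟩,⟨92275080179738254312500000000,4,0⟩,⟨(-8624751854536172691393750000),5,0⟩,⟨(-53924531574250611663095227500),6,0⟩,⟨(-16702732939392113018313399939),7,0⟩]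

/-- Certificate tree. -/
def tnu1 : OutT := (A (A (A (O l) (O l)) (O l)) (A (A (O l) (A (O l) (O l))) (A (A (A (O l) (O l)) (A (A (O l) (O l)) (A (O l) (A (O l) (O l))))) (A (A (A (A (O l) (O l)) (O l)) (A (O l) (O l))) (A (O l) (O l))))))

theorem hnu1 (x : ℝ) (h0 : 0 ≤ x) (h1 : x ≤ 1) : evalIL lnu1 x 0 ≤ 0 :=
  uni_le 7 65536 lnu1 (by norm_num) (by norm_num) (by decide +kernel)
    (chkOut_sound (uniPb 7 65536 lnu1) tnu1 0 32768 0 32768 (by decide +kernel)) x h0 h1

/-- Certificate polynomial. -/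
def lnl1 : List ITm := [⟨(-7835693359375000000000000000),0,0⟩,⟨10884711181640625000000000000,1,0⟩,⟨44612877832031250000000000000,2,0⟩,⟨(-34714654933090781250000000000),3,0⟩,⟨(-92275080179738254312500000000),4,0⟩,⟨8624751854536172691393750000,5,0⟩,⟨53924531574250611663095227500,6,0⟩,⟨16702732939392113018313399939,7,0⟩]

/-- Certificate tree. -/
def tnl1 : OutT := (A (A (O l) (A (O l) (A (A (O l) (O l)) (A (O l) (O l))))) (A (A (A (A (O l) (O l)) (A (O l) (O l))) (A (O l) (O l))) (A (O l) (A (O l) (A (O l) (A (O l) (A (O l) (O l))))))))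

theorem hnl1 (x : ℝ) (h0 : 0 ≤ x) (h1 : x ≤ 1) : evalIL lnl1 x 0 ≤ 0 :=
  uni_le 7 65536 lnl1 (by norm_num) (by norm_num) (by decide +kernel)
    (chkOut_sound (uniPb 7 65536 lnl1) tnl1 0 32768 0 32768 (by decide +kernel)) x h0 h1

theorem apx1 (u : ℝ) (h0 : -(1323 / 5000 : ℝ) ≤ u) (h1 : u ≤ 2 * (1323 / 5000 : ℝ)) :
    |((1 + u)⁻¹) ^ 1 - evalZ Ax.p1 (3 * u) / Ax.D1| ≤ Ax.e1 * |u| ^ Ax.m1 := by
  have hu : 0 < 1 + u := by norm_num at h0 ⊢; linarith
  refine apx_of_S 1 2 _ (S1 u) _ u hu ?_ ?_ ?_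
  · simp only [Ax, evalZ_cons, evalZ_nil, S1]
    push_cast
    ring
  · rcases le_total 0 u with hs | hs
    · have hx := hpu1 (u / (2 * (1323 / 5000 : ℝ))) (by positivity) (by rw [div_le_one (by norm_num)]; exact h1)
      have e : evalIL lpu1 (u / (2 * (1323 / 5000 : ℝ))) 0 = 2560000000000000000000000000000 * (S1 u - Ax.e1 * (1 + u) ^ 1) := by
        simp only [lpu1, evalIL, List.map_cons, List.map_nil, List.sum_cons, List.sum_nil, S1, Ax]
        push_cast
        ring
      rw [e] at hx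
      have := cmul_nonpos (by norm_num) hx
      simp only [Ax] at this ⊢
      linarith
    · have hx := hnu1 (-u / (1323 / 5000 : ℝ)) (by apply div_nonneg <;> [linarith; norm_num]) (by rw [div_le_one (by norm_num)]; linarith)
      have e : evalIL lnu1 (-u / (1323 / 5000 : ℝ)) 0 = 327680000000000000000000000000000 * (S1 u - Ax.e1 * (1 + u) ^ 1) := by
        simp only [lnu1, evalIL, List.map_cons, List.map_nil, List.sum_cons, List.sum_nil, S1, Ax]
        push_cast
        ring
      rw [e] at hx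
      have := cmul_nonpos (by norm_num) hx
      simp only [Ax] at this ⊢
      linarith
  · rcases le_total 0 u with hs | hs
    · have hx := hpl1 (u / (2 * (1323 / 5000 : ℝ))) (by positivity) (by rw [div_le_one (by norm_num)]; exact h1)
      have e : evalIL lpl1 (u / (2 * (1323 / 5000 : ℝ))) 0 = 2560000000000000000000000000000 * (-S1 u - Ax.e1 * (1 + u) ^ 1) := by
        simp only [lpl1, evalIL, List.map_cons, List.map_nil, List.sum_cons, List.sum_nil, S1, Ax]
        push_cast
        ring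
      rw [e] at hx
      have := cmul_nonpos (by norm_num) hx
      simp only [Ax] at this ⊢
      linarith
    · have hx := hnl1 (-u / (1323 / 5000 : ℝ)) (by apply div_nonneg <;> [linarith; norm_num]) (by rw [div_le_one (by norm_num)]; linarith)
      have e : evalIL lnl1 (-u / (1323 / 5000 : ℝ)) 0 = 327680000000000000000000000000000 * (-S1 u - Ax.e1 * (1 + u) ^ 1) := by
        simp only [lnl1, evalIL, List.map_cons, List.map_nil, List.sum_cons, List.sum_nil, S1, Ax]
        push_cast
        ring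
      rw [e] at hx
      have := cmul_nonpos (by norm_num) hx
      simp only [Ax] at this ⊢
      linarith

/-- The quotient polynomial for `j = 2`. -/
noncomputable def S2 (u : ℝ) : ℝ :=
  (923 / 8388608 : ℝ) * u ^ 0 + (18923 / 16777216 : ℝ) * u ^ 1 + (-304697 / 16777216 : ℝ) * u ^ 2 + (-585505 / 8388608 : ℝ) * u ^ 3 + (8589765 / 16777216 : ℝ) * u ^ 4 + (11242491 / 16777216 : ℝ) * u ^ 5 + (-37569003 / 8388608 : ℝ) * u ^ 6 + (11018455 / 8388608 : ℝ) * u ^ 7 + (41100595 / 8388608 : ℝ) * u ^ 8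

/-- Certificate polynomial. -/
def lpu2 : List ITm := [⟨(-32007694244384765625000000000),0,0⟩,⟨1196018869400024414062500000000,1,0⟩,⟨(-13108355993741226196289062500000),2,0⟩,⟨(-26481353559664746093750000000000),3,0⟩,⟨102797059986961927207031250000000,4,0⟩,⟨71200295409647676721739062500000,5,0⟩,⟨(-251824945199221656461281083750000),6,0⟩,⟨39084954972399814607509539442500,7,0⟩,⟨77153717801670437017740700395639,8,0⟩]

/-- Certificate tree. -/
def tpu2 : OutT := (A (A (A (A (A (O l) (A (O l) (O l))) (A (O l) (O l))) (A (O l) (O l))) (A (A (O l) (O l)) (A (O l) (O l)))) (A (A (A (A (O l) (O l)) (A (O l) (A (O l) (O l)))) (A (A (A (O l) (A (O l) (O l))) (A (A (O l) (O l)) (A (A (O l) (O l)) (A (O l) (O l))))) (A (A (A (A (O l) (O l)) (A (O l) (O l))) (A (A (O l) (O l)) (A (O l) (O l)))) (A (A (O l) (O l)) (A (O l) (O l)))))) (A (A (A (A (A (O l) (O l)) (O l)) (A (O l) (O l))) (A (A (O l) (O l)) (A (O l) (O l)))) (A (A (A (O l) (O l)) (A (O l) (O l))) (A (A (O l) (O l)) (A (O l)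 (A (O l) (A (O l) (A (O l) (O l))))))))))

theorem hpu2 (x : ℝ) (h0 : 0 ≤ x) (h1 : x ≤ 1) : evalIL lpu2 x 0 ≤ 0 :=
  uni_le 8 65536 lpu2 (by norm_num) (by norm_num) (by decide +kernel)
    (chkOut_sound (uniPb 8 65536 lpu2) tpu2 0 32768 0 32768 (by decide +kernel)) x h0 h1

/-- Certificate polynomial. -/
def lpl2 : List ITm := [⟨(-595362186431884765625000000000),0,0⟩,⟨(-1860027151107788085937500000000),1,0⟩,⟨12932659402401351928710937500000,2,0⟩,⟨26481353559664746093750000000000,3,0⟩,⟨(-102797059986961927207031250000000),4,0⟩,⟨(-71200295409647676721739062500000),5,0⟩,⟨251824945199221656461281083750000,6,0⟩,⟨(-39084954972399814607509539442500),7,0⟩,⟨(-77153717801670437017740700395639),8,0⟩]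

/-- Certificate tree. -/
def tpl2 : OutT := (A (A (A (O l) (A (O l) (O l))) (A (A (A (O l) (O l)) (A (A (O l) (O l)) (A (O l) (A (O l) (O l))))) (A (A (A (A (O l) (O l)) (A (O l) (O l))) (A (O l) (O l))) (A (A (O l) (O l)) (O l))))) (A (A (A (A (O l) (O l)) (A (O l) (O l))) (A (A (O l) (O l)) (A (O l) (O l)))) (A (A (A (O l) (A (O l) (O l))) (A (A (O l) (O l)) (A (O l) (A (O l) (O l))))) (A (A (A (A (O l) (O l)) (A (A (O l) (O l)) (A (O l) (O l)))) (A (A (A (O l) (A (O l) (O l))) (A (A (O l) (O l)) (A (O l) (O l)))) (A (A (A (O l) (O l)) (A (O l) (O l))) (A (O l) (O l))))) (A (A (A (A (O l) (O l)) (O l)) (A (O l) (O l))) (A (A (O l) (O l)) (O l)))))))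

theorem hpl2 (x : ℝ) (h0 : 0 ≤ x) (h1 : x ≤ 1) : evalIL lpl2 x 0 ≤ 0 :=
  uni_le 8 65536 lpl2 (by norm_num) (by norm_num) (by decide +kernel)
    (chkOut_sound (uniPb 8 65536 lpl2) tpl2 0 32768 0 32768 (by decide +kernel)) x h0 h1

/-- Certificate polynomial. -/
def lnu2 : List ITm := [⟨(-8193969726562500000000000000000),0,0⟩,⟨(-153090415283203125000000000000000),1,0⟩,⟨(-838934783599438476562500000000000),2,0⟩,⟨847403313909271875000000000000000,3,0⟩,⟨1644752959791390835312500000000000,4,0⟩,⟨(-569602363277181413773912500000000),5,0⟩,⟨(-1007299780796886625845124335000000),6,0⟩,⟨(-78169909944799629215019078885000),7,0⟩,⟨77153717801670437017740700395639,8,0⟩]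

/-- Certificate tree. -/
def tnu2 : OutT := (A (A (A (O l) (O l)) (O l)) (A (A (O l) (A (O l) (O l))) (A (A (A (O l) (O l)) (A (A (O l) (O l)) (A (A (O l) (O l)) (A (O l) (O l))))) (A (A (A (A (O l) (O l)) (O l)) (A (O l) (O l))) (A (O l) (O l))))))

theorem hnu2 (x : ℝ) (h0 : 0 ≤ x) (h1 : x ≤ 1) : evalIL lnu2 x 0 ≤ 0 :=
  uni_le 8 65536 lnu2 (by norm_num) (by norm_num) (by decide +kernel)
    (chkOut_sound (uniPb 8 65536 lnu2) tnu2 0 32768 0 32768 (by decide +kernel)) x h0 h1

/-- Certificate polynomial. -/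
def lnl2 : List ITm := [⟨(-152412719726562500000000000000000),0,0⟩,⟨238083475341796875000000000000000,1,0⟩,⟨827690201753686523437500000000000,2,0⟩,⟨(-847403313909271875000000000000000),3,0⟩,⟨(-1644752959791390835312500000000000),4,0⟩,⟨569602363277181413773912500000000,5,0⟩,⟨1007299780796886625845124335000000,6,0⟩,⟨78169909944799629215019078885000,7,0⟩,⟨(-77153717801670437017740700395639),8,0⟩]

/-- Certificate tree. -/
def tnl2 : OutT := (A (A (O l) (A (O l) (A (A (O l) (O l)) (A (O l) (A (O l) (O l)))))) (A (A (A (A (A (O l) (O l)) (O l)) (A (O l) (O l))) (A (O l) (O l))) (A (A (O l) (O l)) (A (O l) (A (O l) (A (O l) (A (O l) (O l))))))))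

theorem hnl2 (x : ℝ) (h0 : 0 ≤ x) (h1 : x ≤ 1) : evalIL lnl2 x 0 ≤ 0 :=
  uni_le 8 65536 lnl2 (by norm_num) (by norm_num) (by decide +kernel)
    (chkOut_sound (uniPb 8 65536 lnl2) tnl2 0 32768 0 32768 (by decide +kernel)) x h0 h1

theorem apx2 (u : ℝ) (h0 : -(1323 / 5000 : ℝ) ≤ u) (h1 : u ≤ 2 * (1323 / 5000 : ℝ)) :
    |((1 + u)⁻¹) ^ 2 - evalZ Ax.p2 (3 * u) / Ax.D2| ≤ Ax.e2 * |u| ^ Ax.m2 := by
  have hu : 0 < 1 + u := by norm_num at h0 ⊢; linarith
  refine apx_of_S 2 2 _ (S2 u) _ u hu ?_ ?_ ?_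
  · simp only [Ax, evalZ_cons, evalZ_nil, S2]
    push_cast
    ring
  · rcases le_total 0 u with hs | hs
    · have hx := hpu2 (u / (2 * (1323 / 5000 : ℝ))) (by positivity) (by rw [div_le_one (by norm_num)]; exact h1)
      have e : evalIL lpu2 (u / (2 * (1323 / 5000 : ℝ))) 0 = 2560000000000000000000000000000000 * (S2 u - Ax.e2 * (1 + u) ^ 2) := by
        simp only [lpu2, evalIL, List.map_cons, List.map_nil, List.sum_cons, List.sum_nil, S2, Ax]
        push_cast
        ring
      rw [e] at hx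
      have := cmul_nonpos (by norm_num) hx
      simp only [Ax] at this ⊢
      linarith
    · have hx := hnu2 (-u / (1323 / 5000 : ℝ)) (by apply div_nonneg <;> [linarith; norm_num]) (by rw [div_le_one (by norm_num)]; linarith)
      have e : evalIL lnu2 (-u / (1323 / 5000 : ℝ)) 0 = 655360000000000000000000000000000000 * (S2 u - Ax.e2 * (1 + u) ^ 2) := by
        simp only [lnu2, evalIL, List.map_cons, List.map_nil, List.sum_cons, List.sum_nil, S2, Ax]
        push_cast
        ring
      rw [e] at hx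
      have := cmul_nonpos (by norm_num) hx
      simp only [Ax] at this ⊢
      linarith
  · rcases le_total 0 u with hs | hs
    · have hx := hpl2 (u / (2 * (1323 / 5000 : ℝ))) (by positivity) (by rw [div_le_one (by norm_num)]; exact h1)
      have e : evalIL lpl2 (u / (2 * (1323 / 5000 : ℝ))) 0 = 2560000000000000000000000000000000 * (-S2 u - Ax.e2 * (1 + u) ^ 2) := by
        simp only [lpl2, evalIL, List.map_cons, List.map_nil, List.sum_cons, List.sum_nil, S2, Ax]
        push_cast
        ring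
      rw [e] at hx
      have := cmul_nonpos (by norm_num) hx
      simp only [Ax] at this ⊢
      linarith
    · have hx := hnl2 (-u / (1323 / 5000 : ℝ)) (by apply div_nonneg <;> [linarith; norm_num]) (by rw [div_le_one (by norm_num)]; linarith)
      have e : evalIL lnl2 (-u / (1323 / 5000 : ℝ)) 0 = 655360000000000000000000000000000000 * (-S2 u - Ax.e2 * (1 + u) ^ 2) := by
        simp only [lnl2, evalIL, List.map_cons, List.map_nil, List.sum_cons, List.sum_nil, S2, Ax]
        push_cast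
        ring
      rw [e] at hx
      have := cmul_nonpos (by norm_num) hx
      simp only [Ax] at this ⊢
      linarith

/-- The quotient polynomial for `j = 3`. -/
noncomputable def S3 (u : ℝ) : ℝ :=
  (-695 / 8388608 : ℝ) * u ^ 0 + (394967 / 8388608 : ℝ) * u ^ 1 + (2099849 / 16777216 : ℝ) * u ^ 2 + (-3993091 / 2097152 : ℝ) * u ^ 3 + (-5769839 / 2097152 : ℝ) * u ^ 4 + (38958219 / 2097152 : ℝ) * u ^ 5 + (122657327 / 16777216 : ℝ) * u ^ 6 + (-269881607 / 8388608 : ℝ) * u ^ 7 + (-177313273 / 8388608 : ℝ) * u ^ 8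

/-- Certificate polynomial. -/
def lpu3 : List ITm := [⟨(-39242815971374511718750000000000),0,0⟩,⟨258315656633377075195312500000000,1,0⟩,⟨416581286607936859130859375000000,2,0⟩,⟨(-3617667361758372486877441406250000),3,0⟩,⟨(-2761996333069006749843750000000000),4,0⟩,⟨9869117801148335907288562500000000,5,0⟩,⟨2055429488643737156270357821875000,6,0⟩,⟨(-4786655868483332106351003281572500),7,0⟩,⟨(-1664255496487648178202281822497113),8,0⟩]

/-- Certificate tree. -/
def tpu3 : OutT := (A (A (A (A (O l) (O l)) (A (A (O l) (A (O l) (O l))) (A (A (O l) (O l)) (O l)))) (A (A (A (O l) (O l)) (O l)) (A (O l) (O l)))) (A (A (A (O l) (O l)) (A (O l) (O l))) (A (A (A (O l) (O l)) (A (A (O l) (O l)) (A (A (O l) (O l)) (A (O l) (O l))))) (A (A (A (A (A (O l) (O l)) (A (O l) (O l))) (A (A (O l) (O l)) (O l))) (A (A (O l) (O l)) (O l))) (A (A (O l) (O l)) (O l))))))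

theorem hpu3 (x : ℝ) (h0 : 0 ≤ x) (h1 : x ≤ 1) : evalIL lpu3 x 0 ≤ 0 :=
  uni_le 8 65536 lpu3 (by norm_num) (by norm_num) (by decide +kernel)
    (chkOut_sound (uniPb 8 65536 lpu3) tpu3 0 32768 0 32768 (by decide +kernel)) x h0 h1

/-- Certificate polynomial. -/
def lpl3 : List ITm := [⟨(-37121844291687011718750000000000),0,0⟩,⟨(-379552191267013549804687500000000),1,0⟩,⟨(-480739660736057281494140625000000),2,0⟩,⟨3606349824562172044372558593750000,3,0⟩,⟨2761996333069006749843750000000000,4,0⟩,⟨(-9869117801148335907288562500000000),5,0⟩,⟨(-2055429488643737156270357821875000),6,0⟩,⟨4786655868483332106351003281572500,7,0⟩,⟨1664255496487648178202281822497113,8,0⟩]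

/-- Certificate tree. -/
def tpl3 : OutT := (A (A (A (O l) (O l)) (A (O l) (A (O l) (A (O l) (O l))))) (A (A (A (A (O l) (A (O l) (O l))) (A (A (A (O l) (O l)) (A (O l) (O l))) (A (A (O l) (O l)) (O l)))) (A (A (A (O l) (O l)) (O l)) (A (O l) (O l)))) (A (A (A (O l) (O l)) (O l)) (A (O l) (A (O l) (A (O l) (A (O l) (A (O l) (O l)))))))))

theorem hpl3 (x : ℝ) (h0 : 0 ≤ x) (h1 : x ≤ 1) : evalIL lpl3 x 0 ≤ 0 :=
  uni_le 8 65536 lpl3 (by norm_num) (by norm_num) (by decide +kernel)
    (chkOut_sound (uniPb 8 65536 lpl3) tpl3 0 32768 0 32768 (by decide +kernel)) x h0 h1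

/-- Certificate polynomial. -/
def lnu3 : List ITm := [⟨(-10046160888671875000000000000000000),0,0⟩,⟨(-33064404049072265625000000000000000),1,0⟩,⟨26661202342907958984375000000000000,2,0⟩,⟨115765355576267919580078125000000000,3,0⟩,⟨(-44191941329104107997500000000000000),4,0⟩,⟨(-78952942409186687258308500000000000),5,0⟩,⟨8221717954574948625081431287500000,6,0⟩,⟨9573311736966664212702006563145000,7,0⟩,⟨(-1664255496487648178202281822497113),8,0⟩]

/-- Certificate tree. -/
def tnu3 : OutT := (A (O l) (A (A (O l) (A (O l) (O l))) (A (A (A (O l) (A (O l) (O l))) (A (A (O l) (O l)) (A (O l) (O l)))) (A (A (O l) (O l)) (O l)))))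

theorem hnu3 (x : ℝ) (h0 : 0 ≤ x) (h1 : x ≤ 1) : evalIL lnu3 x 0 ≤ 0 :=
  uni_le 8 65536 lnu3 (by norm_num) (by norm_num) (by decide +kernel)
    (chkOut_sound (uniPb 8 65536 lnu3) tnu3 0 32768 0 32768 (by decide +kernel)) x h0 h1

/-- Certificate polynomial. -/
def lnl3 : List ITm := [⟨(-9503192138671875000000000000000000),0,0⟩,⟨48582680482177734375000000000000000,1,0⟩,⟨(-30767338287107666015625000000000000),2,0⟩,⟨(-115403194385989505419921875000000000),3,0⟩,⟨44191941329104107997500000000000000,4,0⟩,⟨78952942409186687258308500000000000,5,0⟩,⟨(-8221717954574948625081431287500000),6,0⟩,⟨(-9573311736966664212702006563145000),7,0⟩,⟨1664255496487648178202281822497113,8,0⟩]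

/-- Certificate tree. -/
def tnl3 : OutT := (A (A (A (O l) (O l)) (A (A (A (O l) (O l)) (A (O l) (O l))) (A (A (O l) (O l)) (O l)))) (A (A (O l) (O l)) (A (O l) (A (O l) (A (O l) (A (O l) (A (O l) (O l))))))))

theorem hnl3 (x : ℝ) (h0 : 0 ≤ x) (h1 : x ≤ 1) : evalIL lnl3 x 0 ≤ 0 :=
  uni_le 8 65536 lnl3 (by norm_num) (by norm_num) (by decide +kernel)
    (chkOut_sound (uniPb 8 65536 lnl3) tnl3 0 32768 0 32768 (by decide +kernel)) x h0 h1

theorem apx3 (u : ℝ) (h0 : -(1323 / 5000 : ℝ) ≤ u) (h1 : u ≤ 2 * (1323 / 5000 : ℝ)) :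
    |((1 + u)⁻¹) ^ 3 - evalZ Ax.p3 (3 * u) / Ax.D3| ≤ Ax.e3 * |u| ^ Ax.m3 := by
  have hu : 0 < 1 + u := by norm_num at h0 ⊢; linarith
  refine apx_of_S 3 2 _ (S3 u) _ u hu ?_ ?_ ?_
  · simp only [Ax, evalZ_cons, evalZ_nil, S3]
    push_cast
    ring
  · rcases le_total 0 u with hs | hs
    · have hx := hpu3 (u / (2 * (1323 / 5000 : ℝ))) (by positivity) (by rw [div_le_one (by norm_num)]; exact h1)
      have e : evalIL lpu3 (u / (2 * (1323 / 5000 : ℝ))) 0 = 12800000000000000000000000000000000 * (S3 u - Ax.e3 * (1 + u) ^ 3) := by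
        simp only [lpu3, evalIL, List.map_cons, List.map_nil, List.sum_cons, List.sum_nil, S3, Ax]
        push_cast
        ring
      rw [e] at hx
      have := cmul_nonpos (by norm_num) hx
      simp only [Ax] at this ⊢
      linarith
    · have hx := hnu3 (-u / (1323 / 5000 : ℝ)) (by apply div_nonneg <;> [linarith; norm_num]) (by rw [div_le_one (by norm_num)]; linarith)
      have e : evalIL lnu3 (-u / (1323 / 5000 : ℝ)) 0 = 3276800000000000000000000000000000000 * (S3 u - Ax.e3 * (1 + u) ^ 3) := by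
        simp only [lnu3, evalIL, List.map_cons, List.map_nil, List.sum_cons, List.sum_nil, S3, Ax]
        push_cast
        ring
      rw [e] at hx
      have := cmul_nonpos (by norm_num) hx
      simp only [Ax] at this ⊢
      linarith
  · rcases le_total 0 u with hs | hs
    · have hx := hpl3 (u / (2 * (1323 / 5000 : ℝ))) (by positivity) (by rw [div_le_one (by norm_num)]; exact h1)
      have e : evalIL lpl3 (u / (2 * (1323 / 5000 : ℝ))) 0 = 12800000000000000000000000000000000 * (-S3 u - Ax.e3 * (1 + u) ^ 3) := by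
        simp only [lpl3, evalIL, List.map_cons, List.map_nil, List.sum_cons, List.sum_nil, S3, Ax]
        push_cast
        ring
      rw [e] at hx
      have := cmul_nonpos (by norm_num) hx
      simp only [Ax] at this ⊢
      linarith
    · have hx := hnl3 (-u / (1323 / 5000 : ℝ)) (by apply div_nonneg <;> [linarith; norm_num]) (by rw [div_le_one (by norm_num)]; linarith)
      have e : evalIL lnl3 (-u / (1323 / 5000 : ℝ)) 0 = 3276800000000000000000000000000000000 * (-S3 u - Ax.e3 * (1 + u) ^ 3) := by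
        simp only [lnl3, evalIL, List.map_cons, List.map_nil, List.sum_cons, List.sum_nil, S3, Ax]
        push_cast
        ring
      rw [e] at hx
      have := cmul_nonpos (by norm_num) hx
      simp only [Ax] at this ⊢
      linarith

/-- The quotient polynomial for `j = 4`. -/
noncomputable def S4 (u : ℝ) : ℝ :=
  (-672203 / 16777216 : ℝ) * u ^ 0 + (791317 / 16777216 : ℝ) * u ^ 1 + (69092817 / 16777216 : ℝ) * u ^ 2 + (19966809 / 4194304 : ℝ) * u ^ 3 + (-831297733 / 16777216 : ℝ) * u ^ 4 + (-794080495 / 16777216 : ℝ) * u ^ 5 + (1648289639 / 16777216 : ℝ) * u ^ 6 + (1262852935 / 8388608 : ℝ) * u ^ 7 + (56880887 / 1048576 : ℝ) * u ^ 8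

/-- Certificate polynomial. -/
def lpu4 : List ITm := [⟨(-268261826038360595703125000000000),0,0⟩,⟨(-216583236522674560546875000000000),1,0⟩,⟨3455321211188312530517578125000000,2,0⟩,⟨2174635095112175454711914062500000,3,0⟩,⟨(-12446563272702002403269348144531250),4,0⟩,⟨(-6286280974456556703803291015625000),5,0⟩,⟨6905301160334555710886628649218750,6,0⟩,⟨5599531660885980596933655277153125,7,0⟩,⟨1067763594153978680660639042939694,8,0⟩]

/-- Certificate tree. -/
def tpu4 : OutT := (A (A (O l) (A (A (O l) (A (O l) (O l))) (A (A (A (O l) (O l)) (A (O l) (O l))) (A (A (O l) (O l)) (O l))))) (A (A (A (A (O l) (O l)) (O l)) (A (O l) (O l))) (A (O l) (A (O l) (A (O l) (A (O l) (A (O l) (O l))))))))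

theorem hpu4 (x : ℝ) (h0 : 0 ≤ x) (h1 : x ≤ 1) : evalIL lpu4 x 0 ≤ 0 :=
  uni_le 8 65536 lpu4 (by norm_num) (by norm_num) (by decide +kernel)
    (chkOut_sound (uniPb 8 65536 lpu4) tpu4 0 32768 0 32768 (by decide +kernel)) x h0 h1

/-- Certificate polynomial. -/
def lpl4 : List ITm := [⟨(-11836731433868408203125000000000),0,0⟩,⟨(-376329389934539794921875000000000),1,0⟩,⟨(-3925975254070049285888671875000000),2,0⟩,⟨(-2340681841440852182006835937500000),3,0⟩,⟨12424595288162718472248229980468750,4,0⟩,⟨6286280974456556703803291015625000,5,0⟩,⟨(-6905301160334555710886628649218750),6,0⟩,⟨(-5599531660885980596933655277153125),7,0⟩,⟨(-1067763594153978680660639042939694),8,0⟩]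

/-- Certificate tree. -/
def tpl4 : OutT := (A (A (A (A (O l) (O l)) (O l)) (A (O l) (O l))) (A (A (O l) (A (O l) (O l))) (A (A (A (O l) (A (O l) (O l))) (A (A (A (O l) (O l)) (A (O l) (O l))) (A (A (O l) (O l)) (O l)))) (A (A (A (O l) (O l)) (O l)) (O l)))))

theorem hpl4 (x : ℝ) (h0 : 0 ≤ x) (h1 : x ≤ 1) : evalIL lpl4 x 0 ≤ 0 :=
  uni_le 8 65536 lpl4 (by norm_num) (by norm_num) (by decide +kernel)
    (chkOut_sound (uniPb 8 65536 lpl4) tpl4 0 32768 0 32768 (by decide +kernel)) x h0 h1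

/-- Certificate polynomial. -/
def lnu4 : List ITm := [⟨(-34337513732910156250000000000000000),0,0⟩,⟨13861327137451171875000000000000000,1,0⟩,⟨110570278758026000976562500000000000,2,0⟩,⟨(-34794161521794807275390625000000000),3,0⟩,⟨(-99572506181616019226154785156250000),4,0⟩,⟨25145123897826226815213164062500000,5,0⟩,⟨13810602320669111421773257298437500,6,0⟩,⟨(-5599531660885980596933655277153125),7,0⟩,⟨533881797076989340330319521469847,8,0⟩]

/-- Certificate tree. -/
def tnu4 : OutT := (A (A (O l) (O l)) (A (A (O l) (A (O l) (A (O l) (A (O l) (O l))))) (A (A (A (A (O l) (O l)) (A (O l) (O l))) (A (O l) (O l))) (A (O l) (O l)))))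

theorem hnu4 (x : ℝ) (h0 : 0 ≤ x) (h1 : x ≤ 1) : evalIL lnu4 x 0 ≤ 0 :=
  uni_le 8 65536 lnu4 (by norm_num) (by norm_num) (by decide +kernel)
    (chkOut_sound (uniPb 8 65536 lnu4) tnu4 0 32768 0 32768 (by decide +kernel)) x h0 h1

/-- Certificate polynomial. -/
def lnl4 : List ITm := [⟨(-1515101623535156250000000000000000),0,0⟩,⟨24085080955810546875000000000000000,1,0⟩,⟨(-125631208130241577148437500000000000),2,0⟩,⟨37450909463053634912109375000000000,3,0⟩,⟨99396762305301747777985839843750000,4,0⟩,⟨(-25145123897826226815213164062500000),5,0⟩,⟨(-13810602320669111421773257298437500),6,0⟩,⟨5599531660885980596933655277153125,7,0⟩,⟨(-533881797076989340330319521469847),8,0⟩]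

/-- Certificate tree. -/
def tnl4 : OutT := (A (A (A (A (O l) (O l)) (A (O l) (O l))) (A (O l) (O l))) (A (O l) (A (O l) (A (O l) (A (O l) (A (O l) (O l)))))))

theorem hnl4 (x : ℝ) (h0 : 0 ≤ x) (h1 : x ≤ 1) : evalIL lnl4 x 0 ≤ 0 :=
  uni_le 8 65536 lnl4 (by norm_num) (by norm_num) (by decide +kernel)
    (chkOut_sound (uniPb 8 65536 lnl4) tnl4 0 32768 0 32768 (by decide +kernel)) x h0 h1

theorem apx4 (u : ℝ) (h0 : -(1323 / 5000 : ℝ) ≤ u) (h1 : u ≤ 2 * (1323 / 5000 : ℝ)) :
    |((1 + u)⁻¹) ^ 4 - evalZ Ax.p4 (3 * u) / Ax.D4| ≤ Ax.e4 * |u| ^ Ax.m4 := by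
  have hu : 0 < 1 + u := by norm_num at h0 ⊢; linarith
  refine apx_of_S 4 2 _ (S4 u) _ u hu ?_ ?_ ?_
  · simp only [Ax, evalZ_cons, evalZ_nil, S4]
    push_cast
    ring
  · rcases le_total 0 u with hs | hs
    · have hx := hpu4 (u / (2 * (1323 / 5000 : ℝ))) (by positivity) (by rw [div_le_one (by norm_num)]; exact h1)
      have e : evalIL lpu4 (u / (2 * (1323 / 5000 : ℝ))) 0 = 3200000000000000000000000000000000 * (S4 u - Ax.e4 * (1 + u) ^ 4) := by
        simp only [lpu4, evalIL, List.map_cons, List.map_nil, List.sum_cons, List.sum_nil, S4, Ax]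
        push_cast
        ring
      rw [e] at hx
      have := cmul_nonpos (by norm_num) hx
      simp only [Ax] at this ⊢
      linarith
    · have hx := hnu4 (-u / (1323 / 5000 : ℝ)) (by apply div_nonneg <;> [linarith; norm_num]) (by rw [div_le_one (by norm_num)]; linarith)
      have e : evalIL lnu4 (-u / (1323 / 5000 : ℝ)) 0 = 409600000000000000000000000000000000 * (S4 u - Ax.e4 * (1 + u) ^ 4) := by
        simp only [lnu4, evalIL, List.map_cons, List.map_nil, List.sum_cons, List.sum_nil, S4, Ax]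
        push_cast
        ring
      rw [e] at hx
      have := cmul_nonpos (by norm_num) hx
      simp only [Ax] at this ⊢
      linarith
  · rcases le_total 0 u with hs | hs
    · have hx := hpl4 (u / (2 * (1323 / 5000 : ℝ))) (by positivity) (by rw [div_le_one (by norm_num)]; exact h1)
      have e : evalIL lpl4 (u / (2 * (1323 / 5000 : ℝ))) 0 = 3200000000000000000000000000000000 * (-S4 u - Ax.e4 * (1 + u) ^ 4) := by
        simp only [lpl4, evalIL, List.map_cons, List.map_nil, List.sum_cons, List.sum_nil, S4, Ax]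
        push_cast
        ring
      rw [e] at hx
      have := cmul_nonpos (by norm_num) hx
      simp only [Ax] at this ⊢
      linarith
    · have hx := hnl4 (-u / (1323 / 5000 : ℝ)) (by apply div_nonneg <;> [linarith; norm_num]) (by rw [div_le_one (by norm_num)]; linarith)
      have e : evalIL lnl4 (-u / (1323 / 5000 : ℝ)) 0 = 409600000000000000000000000000000000 * (-S4 u - Ax.e4 * (1 + u) ^ 4) := by
        simp only [lnl4, evalIL, List.map_cons, List.map_nil, List.sum_cons, List.sum_nil, S4, Ax]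
        push_cast
        ring
      rw [e] at hx
      have := cmul_nonpos (by norm_num) hx
      simp only [Ax] at this ⊢
      linarith

/-- The quotient polynomial for `j = 5`. -/
noncomputable def S5 (u : ℝ) : ℝ :=
  (-1806897 / 16777216 : ℝ) * u ^ 0 + (196049 / 2097152 : ℝ) * u ^ 1 + (48216631 / 4194304 : ℝ) * u ^ 2 + (368211099 / 16777216 : ℝ) * u ^ 3 + (-2115479947 / 16777216 : ℝ) * u ^ 4 + (-2075606531 / 8388608 : ℝ) * u ^ 5 + (1317604761 / 8388608 : ℝ) * u ^ 6 + (10998921599 / 16777216 : ℝ) * u ^ 7 + (4384111439 / 8388608 : ℝ) * u ^ 8 + (569575317 / 4194304 : ℝ) * u ^ 9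

/-- Certificate polynomial. -/
def lpu5 : List ITm := [⟨(-3639758512377738952636718750000000000),0,0⟩,⟨(-4279693895226716995239257812500000000),1,0⟩,⟨46143203109902272224426269531250000000,2,0⟩,⟨49201871817198058645248413085937500000,3,0⟩,⟨(-158981399674198287155526351928710937500),4,0⟩,⟨(-164393441123112988293179598541259765625),5,0⟩,⟨55199386501728989861617163507812500000,6,0⟩,⟨121923954924337954410955409859145312500,7,0⟩,⟨51436374700853067978335540297590698750,8,0⟩,⟨7072773628011421924042771245809269671,9,0⟩]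

/-- Certificate tree. -/
def tpu5 : OutT := (A (A (O l) (A (A (O l) (A (O l) (O l))) (A (A (A (O l) (O l)) (A (O l) (O l))) (A (O l) (O l))))) (A (A (A (O l) (O l)) (A (O l) (O l))) (A (O l) (A (O l) (A (O l) (A (O l) (O l)))))))

theorem hpu5 (x : ℝ) (h0 : 0 ≤ x) (h1 : x ≤ 1) : evalIL lpu5 x 0 ≤ 0 :=
  uni_le 9 65536 lpu5 (by norm_num) (by norm_num) (by decide +kernel)
    (chkOut_sound (uniPb 9 65536 lpu5) tpu5 0 32768 0 32768 (by decide +kernel)) x h0 h1

/-- Certificate polynomial. -/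
def lpl5 : List ITm := [⟨(-193375989794731140136718750000000000),0,0⟩,⟨(-5862779997521638870239257812500000000),1,0⟩,⟨(-56877997477987132072448730468750000000),2,0⟩,⟨(-54882724996788566476821899414062500000),3,0⟩,⟨157478245922878638783292007446289062500,4,0⟩,⟨164234347330073316709462315521240234375,5,0⟩,⟨(-55199386501728989861617163507812500000),6,0⟩,⟨(-121923954924337954410955409859145312500),7,0⟩,⟨(-51436374700853067978335540297590698750),8,0⟩,⟨(-7072773628011421924042771245809269671),9,0⟩]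

/-- Certificate tree. -/
def tpl5 : OutT := (A (A (A (A (O l) (O l)) (O l)) (A (O l) (O l))) (A (A (O l) (A (O l) (O l))) (A (A (A (O l) (A (O l) (O l))) (A (A (A (O l) (O l)) (A (O l) (O l))) (A (O l) (O l)))) (A (A (O l) (O l)) (O l)))))

theorem hpl5 (x : ℝ) (h0 : 0 ≤ x) (h1 : x ≤ 1) : evalIL lpl5 x 0 ≤ 0 :=
  uni_le 9 65536 lpl5 (by norm_num) (by norm_num) (by decide +kernel)
    (chkOut_sound (uniPb 9 65536 lpl5) tpl5 0 32768 0 32768 (by decide +kernel)) x h0 h1

/-- Certificate polynomial. -/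
def lnu5 : List ITm := [⟨(-1863556358337402343750000000000000000000),0,0⟩,⟨1095601637178039550781250000000000000000,1,0⟩,⟨5906329998067490844726562500000000000000,2,0⟩,⟨(-3148919796300675753295898437500000000000),3,0⟩,⟨(-5087404789574345188976843261718750000000),4,0⟩,⟨2630295057969807812690873576660156250000,5,0⟩,⟨441595092013831918892937308062500000000,6,0⟩,⟨(-487695819697351817643821639436581250000),7,0⟩,⟨102872749401706135956671080595181397500,8,0⟩,⟨(-7072773628011421924042771245809269671),9,0⟩]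

/-- Certificate tree. -/
def tnu5 : OutT := (A (A (O l) (O l)) (A (A (O l) (A (O l) (A (O l) (A (O l) (O l))))) (A (A (A (A (O l) (O l)) (A (O l) (O l))) (A (O l) (O l))) (A (O l) (O l)))))

theorem hnu5 (x : ℝ) (h0 : 0 ≤ x) (h1 : x ≤ 1) : evalIL lnu5 x 0 ≤ 0 :=
  uni_le 9 65536 lnu5 (by norm_num) (by norm_num) (by decide +kernel)
    (chkOut_sound (uniPb 9 65536 lnu5) tnu5 0 32768 0 32768 (by decide +kernel)) x h0 h1

/-- Certificate polynomial. -/
def lnl5 : List ITm := [⟨(-99008506774902343750000000000000000000),0,0⟩,⟨1500871679365539550781250000000000000000,1,0⟩,⟨(-7280383677182352905273437500000000000000),2,0⟩,⟨3512494399794468254516601562500000000000,3,0⟩,⟨5039303869532116441065344238281250000000,4,0⟩,⟨(-2627749557281173067351397048339843750000),5,0⟩,⟨(-441595092013831918892937308062500000000),6,0⟩,⟨487695819697351817643821639436581250000,7,0⟩,⟨(-102872749401706135956671080595181397500),8,0⟩,⟨7072773628011421924042771245809269671,9,0⟩]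

/-- Certificate tree. -/
def tnl5 : OutT := (A (A (A (A (O l) (O l)) (A (O l) (O l))) (A (O l) (O l))) (A (A (O l) (O l)) (A (O l) (A (O l) (A (O l) (A (O l) (A (O l) (O l))))))))

theorem hnl5 (x : ℝ) (h0 : 0 ≤ x) (h1 : x ≤ 1) : evalIL lnl5 x 0 ≤ 0 :=
  uni_le 9 65536 lnl5 (by norm_num) (by norm_num) (by decide +kernel)
    (chkOut_sound (uniPb 9 65536 lnl5) tnl5 0 32768 0 32768 (by decide +kernel)) x h0 h1

theorem apx5 (u : ℝ) (h0 : -(1323 / 5000 : ℝ) ≤ u) (h1 : u ≤ 2 * (1323 / 5000 : ℝ)) :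
    |((1 + u)⁻¹) ^ 5 - evalZ Ax.p5 (3 * u) / Ax.D5| ≤ Ax.e5 * |u| ^ Ax.m5 := by
  have hu : 0 < 1 + u := by norm_num at h0 ⊢; linarith
  refine apx_of_S 5 2 _ (S5 u) _ u hu ?_ ?_ ?_
  · simp only [Ax, evalZ_cons, evalZ_nil, S5]
    push_cast
    ring
  · rcases le_total 0 u with hs | hs
    · have hx := hpu5 (u / (2 * (1323 / 5000 : ℝ))) (by positivity) (by rw [div_le_one (by norm_num)]; exact h1)
      have e : evalIL lpu5 (u / (2 * (1323 / 5000 : ℝ))) 0 = 16000000000000000000000000000000000000 * (S5 u - Ax.e5 * (1 + u) ^ 5) := by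
        simp only [lpu5, evalIL, List.map_cons, List.map_nil, List.sum_cons, List.sum_nil, S5, Ax]
        push_cast
        ring
      rw [e] at hx
      have := cmul_nonpos (by norm_num) hx
      simp only [Ax] at this ⊢
      linarith
    · have hx := hnu5 (-u / (1323 / 5000 : ℝ)) (by apply div_nonneg <;> [linarith; norm_num]) (by rw [div_le_one (by norm_num)]; linarith)
      have e : evalIL lnu5 (-u / (1323 / 5000 : ℝ)) 0 = 8192000000000000000000000000000000000000 * (S5 u - Ax.e5 * (1 + u) ^ 5) := by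
        simp only [lnu5, evalIL, List.map_cons, List.map_nil, List.sum_cons, List.sum_nil, S5, Ax]
        push_cast
        ring
      rw [e] at hx
      have := cmul_nonpos (by norm_num) hx
      simp only [Ax] at this ⊢
      linarith
  · rcases le_total 0 u with hs | hs
    · have hx := hpl5 (u / (2 * (1323 / 5000 : ℝ))) (by positivity) (by rw [div_le_one (by norm_num)]; exact h1)
      have e : evalIL lpl5 (u / (2 * (1323 / 5000 : ℝ))) 0 = 16000000000000000000000000000000000000 * (-S5 u - Ax.e5 * (1 + u) ^ 5) := by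
        simp only [lpl5, evalIL, List.map_cons, List.map_nil, List.sum_cons, List.sum_nil, S5, Ax]
        push_cast
        ring
      rw [e] at hx
      have := cmul_nonpos (by norm_num) hx
      simp only [Ax] at this ⊢
      linarith
    · have hx := hnl5 (-u / (1323 / 5000 : ℝ)) (by apply div_nonneg <;> [linarith; norm_num]) (by rw [div_le_one (by norm_num)]; linarith)
      have e : evalIL lnl5 (-u / (1323 / 5000 : ℝ)) 0 = 8192000000000000000000000000000000000000 * (-S5 u - Ax.e5 * (1 + u) ^ 5) := by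
        simp only [lnl5, evalIL, List.map_cons, List.map_nil, List.sum_cons, List.sum_nil, S5, Ax]
        push_cast
        ring
      rw [e] at hx
      have := cmul_nonpos (by norm_num) hx
      simp only [Ax] at this ⊢
      linarith

theorem hAx : Ax.OK (-(1323 / 5000 : ℝ)) (2 * (1323 / 5000 : ℝ)) where
  e10 := by simp only [Ax]; norm_num
  e20 := by simp only [Ax]; norm_num
  e30 := by simp only [Ax]; norm_num
  e40 := by simp only [Ax]; norm_num
  e50 := by simp only [Ax]; norm_num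
  h1 := fun u a b => by simpa using apx1 u a b
  h2 := apx2
  h3 := apx3
  h4 := apx4
  h5 := apx5

end Vale.Agent.P154.D7.K4
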