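import Vale.Agent.P154.D7.K4.Data
import Vale.Agent.P154.Check2

namespace Vale.Agent.P154.D7.K4

open Cert

/-- Chart (0, 0). -/
def P00 : Pb := chartPb false false Nd w G []

/-- Chart (0, 1). -/
def P01 : Pb := chartPb false true Nd w G []

/-- Chart (1, 0). -/
def P10 : Pb := chartPb true false Nd w G []

/-- Chart (1, 1). -/
def P11 : Pb := chartPb true true Nd w G []

/-- The offset. -/
def KK : ℕ := 1007641851683931820587806291420968258893675472328417820220872324040744595635843008946260940337480903424595632540239579541935629958157893251896932560850028184716008537290582817399466548302510149103210893455908181007667595468047259786297601506742546990374638711734272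

end Vale.Agent.P154.D7.K4
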